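import Mathlib

/-!
# P065, package ENT: Shannon entropy on finite probability spaces (helper587)

Random variables are plain functions `X : Ω → α` on a finite type `Ω` with weights `μ : Ω → ℝ`.
Entropies are in nats and are defined pointwise:
`H μ X = ∑ ω, μ ω * (- log (Pr μ X (X ω)))`.
-/

set_option autoImplicit false

open Finset Real

noncomputable section

namespace Vale.Agent.P065.Ent

variable {Ω : Type*} [Fintype Ω] {α β γ δ : Type*}

/-- `μ` is a probability vector -/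
structure IsProb (μ : Ω → ℝ) : Prop where
  nonneg : ∀ ω, 0 ≤ μ ω
  sum : ∑ ω, μ ω = 1

open Classical in
/-- the probability of `X = x` -/
def Pr (μ : Ω → ℝ) (X : Ω → α) (x : α) : ℝ := ∑ ω, if X ω = x then μ ω else 0

/-- the expectation -/
def Ex (μ : Ω → ℝ) (f : Ω → ℝ) : ℝ := ∑ ω, μ ω * f ω

/-- the entropy of `X` -/
def H (μ : Ω → ℝ) (X : Ω → α) : ℝ := ∑ ω, μ ω * (- log (Pr μ X (X ω)))

/-- the conditional entropy of `X` given `Y` -/
def Hc (μ : Ω → ℝ) (X : Ω → α) (Y : Ω → β) : ℝ := H μ (fun ω => (X ω, Y ω)) - H μ Y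

/-- the conditional mutual information of `X` and `Y` given `Z` -/
def I (μ : Ω → ℝ) (X : Ω → α) (Y : Ω → β) (Z : Ω → γ) : ℝ :=
  Hc μ X Z - Hc μ X (fun ω => (Y ω, Z ω))

/-- `Y` is a function of `X` -/
def Det (X : Ω → α) (Y : Ω → β) : Prop := ∀ ω ω', X ω = X ω' → Y ω = Y ω'

/-! ## Determination -/

section det
variable {X : Ω → α} {Y : Ω → β} {Z : Ω → γ} {W : Ω → δ}

omit [Fintype Ω] in
lemma Det.refl (X : Ω → α) : Det X X := fun _ _ h => h

omit [Fintype Ω] in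
lemma Det.trans (h : Det X Y) (h' : Det Y Z) : Det X Z := fun a b e => h' a b (h a b e)

omit [Fintype Ω] in
lemma Det.comp (X : Ω → α) (f : α → β) : Det X (fun ω => f (X ω)) := fun _ _ e => by
  simp only [e]

omit [Fintype Ω] in
lemma det_fst (X : Ω → α) (Y : Ω → β) : Det (fun ω => (X ω, Y ω)) X := fun _ _ e =>
  (Prod.mk.inj e).1

omit [Fintype Ω] in
lemma det_snd (X : Ω → α) (Y : Ω → β) : Det (fun ω => (X ω, Y ω)) Y := fun _ _ e =>
  (Prod.mk.inj e).2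

omit [Fintype Ω] in
lemma Det.pair (h : Det Z X) (h' : Det Z Y) : Det Z (fun ω => (X ω, Y ω)) := fun a b e =>
  Prod.ext (h a b e) (h' a b e)

omit [Fintype Ω] in
lemma det_swap (X : Ω → α) (Y : Ω → β) : Det (fun ω => (X ω, Y ω)) (fun ω => (Y ω, X ω)) :=
  (det_snd X Y).pair (det_fst X Y)

omit [Fintype Ω] in
lemma det_const (X : Ω → α) (c : β) : Det X (fun _ => c) := fun _ _ _ => rfl

end det

/-! ## Basic properties of `Pr` -/

section pr
variable {μ : Ω → ℝ} {X : Ω → α} {Y : Ω → β} {Z : Ω → γ}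

lemma Pr_nonneg (hμ : IsProb μ) (X : Ω → α) (x : α) : 0 ≤ Pr μ X x := by
  classical
  unfold Pr
  refine sum_nonneg fun ω _ => ?_
  split_ifs
  · exact hμ.nonneg ω
  · exact le_rfl

lemma Pr_le_one (hμ : IsProb μ) (X : Ω → α) (x : α) : Pr μ X x ≤ 1 := by
  classical
  rw [← hμ.sum]
  unfold Pr
  refine sum_le_sum fun ω _ => ?_
  split_ifs
  · exact le_rfl
  · exact hμ.nonneg ω

lemma le_Pr (hμ : IsProb μ) (X : Ω → α) (ω : Ω) : μ ω ≤ Pr μ X (X ω) := by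
  classical
  unfold Pr
  have h := single_le_sum (f := fun ω' => if X ω' = X ω then μ ω' else 0)
    (fun ω' _ => by
      show 0 ≤ if X ω' = X ω then μ ω' else 0
      split_ifs
      · exact hμ.nonneg ω'
      · exact le_rfl) (mem_univ ω)
  simpa using h

lemma Pr_pos (hμ : IsProb μ) (X : Ω → α) {ω : Ω} (h : 0 < μ ω) : 0 < Pr μ X (X ω) :=
  h.trans_le (le_Pr hμ X ω)

/-- a finer variable has smaller probabilities -/
lemma Pr_mono (hμ : IsProb μ) (h : Det X Y) (ω : Ω) : Pr μ X (X ω) ≤ Pr μ Y (Y ω) := by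
  classical
  unfold Pr
  refine sum_le_sum fun ω' _ => ?_
  by_cases h1 : X ω' = X ω
  · rw [if_pos h1, if_pos (h _ _ h1)]
  · rw [if_neg h1]
    split_ifs
    · exact hμ.nonneg ω'
    · exact le_rfl

lemma Pr_congr (h : Det X Y) (h' : Det Y X) (ω : Ω) : Pr μ X (X ω) = Pr μ Y (Y ω) := by
  classical
  unfold Pr
  refine sum_congr rfl fun ω' _ => ?_
  by_cases h1 : X ω' = X ω
  · rw [if_pos h1, if_pos (h _ _ h1)]
  · rw [if_neg h1, if_neg fun h2 => h1 (h' _ _ h2)]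

/-- grouping of a sum according to the values of `X` -/
lemma sum_fiber [DecidableEq α] (μ : Ω → ℝ) (X : Ω → α) (g : α → ℝ) :
    ∑ ω, μ ω * g (X ω) = ∑ x ∈ univ.image X, Pr μ X x * g x := by
  classical
  have h1 : ∀ x ∈ univ.image X, Pr μ X x * g x = ∑ ω, if X ω = x then μ ω * g (X ω) else 0 := by
    intro x _
    unfold Pr
    rw [sum_mul]
    refine sum_congr rfl fun ω _ => ?_
    split_ifs with h
    · rw [h]
    · rw [zero_mul]
  rw [sum_congr rfl h1, sum_comm]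
  refine sum_congr rfl fun ω _ => ?_
  rw [sum_ite_eq, if_pos (mem_image_of_mem X (mem_univ ω))]

lemma sum_Pr [DecidableEq α] (hμ : IsProb μ) (X : Ω → α) : ∑ x ∈ univ.image X, Pr μ X x = 1 := by
  have h := sum_fiber μ X (fun _ => 1)
  simp only [mul_one] at h
  rw [← h, hμ.sum]

/-- the marginal of a pair -/
lemma sum_Pr_pair [DecidableEq α] (μ : Ω → ℝ) (X : Ω → α) (Y : Ω → β) (y : β) :
    ∑ x ∈ univ.image X, Pr μ (fun ω => (X ω, Y ω)) (x, y) = Pr μ Y y := by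
  classical
  unfold Pr
  rw [sum_comm]
  refine sum_congr rfl fun ω _ => ?_
  by_cases h : Y ω = y
  · simp only [Prod.mk.injEq, h, and_true, if_true]
    rw [sum_ite_eq, if_pos (mem_image_of_mem X (mem_univ ω))]
  · simp [h]

lemma Pr_eq_zero (X : Ω → α) {x : α} (h : ∀ ω, X ω ≠ x) : Pr μ X x = 0 := by
  classical
  unfold Pr
  exact sum_eq_zero fun ω _ => if_neg (h ω)

end pr

/-! ## Entropy -/

section ent
variable {μ : Ω → ℝ} {X : Ω → α} {Y : Ω → β} {Z : Ω → γ} {W : Ω → δ}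

lemma H_nonneg (hμ : IsProb μ) (X : Ω → α) : 0 ≤ H μ X := by
  refine sum_nonneg fun ω _ => mul_nonneg (hμ.nonneg ω) ?_
  have := log_nonpos (Pr_nonneg hμ X (X ω)) (Pr_le_one hμ X (X ω))
  linarith

/-- entropy decreases under functions -/
lemma H_mono (hμ : IsProb μ) (h : Det X Y) : H μ Y ≤ H μ X := by
  refine sum_le_sum fun ω _ => ?_
  rcases (hμ.nonneg ω).eq_or_lt with h0 | h0
  · rw [← h0, zero_mul, zero_mul]
  · refine mul_le_mul_of_nonneg_left ?_ h0.le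
    have := log_le_log (Pr_pos hμ X h0) (Pr_mono hμ h ω)
    linarith

lemma H_congr (h : Det X Y) (h' : Det Y X) : H μ X = H μ Y := by
  refine sum_congr rfl fun ω _ => ?_
  rw [Pr_congr h h' ω]

lemma H_swap (μ : Ω → ℝ) (X : Ω → α) (Y : Ω → β) :
    H μ (fun ω => (X ω, Y ω)) = H μ (fun ω => (Y ω, X ω)) :=
  H_congr (det_swap X Y) (det_swap Y X)

lemma Hc_nonneg (hμ : IsProb μ) (X : Ω → α) (Y : Ω → β) : 0 ≤ Hc μ X Y :=
  sub_nonneg.mpr (H_mono hμ (det_snd X Y))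

lemma Hc_congr {α' β' : Type*} {X' : Ω → α'} {Y' : Ω → β'}
    (h1 : Det X X') (h2 : Det X' X) (h3 : Det Y Y') (h4 : Det Y' Y) : Hc μ X Y = Hc μ X' Y' := by
  unfold Hc
  rw [H_congr h3 h4, H_congr (((det_fst X Y).trans h1).pair ((det_snd X Y).trans h3))
    (((det_fst X' Y').trans h2).pair ((det_snd X' Y').trans h4))]

/-- `Hc μ X Y = H (X, Y) - H Y` for any variable equivalent to the pair -/
lemma Hc_eq {X' : Ω → δ} (h1 : Det X' X) (h2 : Det X' Y)
    (h3 : Det (fun ω => (X ω, Y ω)) X') : Hc μ X Y = H μ X' - H μ Y := by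
  unfold Hc
  rw [H_congr h3 (h1.pair h2)]

lemma H_of_const (hμ : IsProb μ) (c : β) : H μ (fun _ : Ω => c) = 0 := by
  unfold H
  refine sum_eq_zero fun ω _ => ?_
  have : Pr μ (fun _ : Ω => c) c = 1 := by
    unfold Pr
    simp [hμ.sum]
  rw [this, log_one]; simp

lemma Hc_const (hμ : IsProb μ) (X : Ω → α) (c : β) : Hc μ X (fun _ => c) = H μ X := by
  unfold Hc
  rw [H_of_const hμ, sub_zero]
  exact H_congr (det_fst _ _) ((Det.refl X).pair (det_const X c))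

lemma H_pair (μ : Ω → ℝ) (X : Ω → α) (Y : Ω → β) :
    H μ (fun ω => (X ω, Y ω)) = H μ Y + Hc μ X Y := by unfold Hc; ring

/-- if `X` is a function of `Y` then `H (X | Y) = 0` -/
lemma Hc_eq_zero (h : Det Y X) : Hc μ X Y = 0 := by
  unfold Hc
  rw [H_congr (det_snd X Y) (h.pair (Det.refl Y)), sub_self]

lemma Hc_mono_left (hμ : IsProb μ) (h : Det X W) : Hc μ W Y ≤ Hc μ X Y := by
  unfold Hc
  have := H_mono hμ (((det_fst X Y).trans h).pair (det_snd X Y))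
  linarith

/-- **Chain rule**: `H (X, Y | Z) = H (Y | Z) + H (X | Y, Z)` -/
lemma Hc_pair (μ : Ω → ℝ) (X : Ω → α) (Y : Ω → β) (Z : Ω → γ) :
    Hc μ (fun ω => (X ω, Y ω)) Z = Hc μ Y Z + Hc μ X (fun ω => (Y ω, Z ω)) := by
  unfold Hc
  have : H μ (fun ω => ((X ω, Y ω), Z ω)) = H μ (fun ω => (X ω, (Y ω, Z ω))) := by
    refine H_congr ?_ ?_
    · exact ((det_fst _ _).trans (det_fst X Y)).pair
        (((det_fst _ _).trans (det_snd X Y)).pair (det_snd _ _))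
    · exact ((det_fst _ _).pair ((det_snd _ _).trans (det_fst Y Z))).pair
        ((det_snd _ _).trans (det_snd Y Z))
  rw [this]; ring

/-- the pointwise form of the conditional entropy -/
lemma Hc_eq_sum (hμ : IsProb μ) (X : Ω → α) (Y : Ω → β) : Hc μ X Y =
    ∑ ω, μ ω * (- log (Pr μ (fun ω => (X ω, Y ω)) (X ω, Y ω) / Pr μ Y (Y ω))) := by
  unfold Hc H
  rw [← sum_sub_distrib]
  refine sum_congr rfl fun ω _ => ?_
  rcases (hμ.nonneg ω).eq_or_lt with h0 | h0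
  · rw [← h0]; ring
  · have h1 := Pr_pos hμ (fun ω => (X ω, Y ω)) h0
    have h2 := Pr_pos hμ Y h0
    rw [log_div h1.ne' h2.ne']; ring

/-- **Gibbs inequality**, conditional form: `q (y, ·)` is a sub-probability vector. -/
theorem gibbs [DecidableEq α] (hμ : IsProb μ) (X : Ω → α) (Y : Ω → β) (q : β → α → ℝ)
    (hq : ∀ ω, 0 < μ ω → 0 < q (Y ω) (X ω)) (hq0 : ∀ ω, ∀ x ∈ univ.image X, 0 ≤ q (Y ω) x)
    (hq1 : ∀ ω, ∑ x ∈ univ.image X, q (Y ω) x ≤ 1) :
    Hc μ X Y ≤ ∑ ω, μ ω * (- log (q (Y ω) (X ω))) := by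
  classical
  rw [Hc_eq_sum hμ, ← sub_nonneg, ← sum_sub_distrib]
  set XY : Ω → α × β := fun ω => (X ω, Y ω) with hXY
  -- pointwise bound
  have h1 : ∀ ω, μ ω * (1 - q (Y ω) (X ω) * Pr μ Y (Y ω) / Pr μ XY (XY ω)) ≤
      μ ω * (- log (q (Y ω) (X ω))) - μ ω * (- log (Pr μ XY (XY ω) / Pr μ Y (Y ω))) := by
    intro ω
    rcases (hμ.nonneg ω).eq_or_lt with h0 | h0
    · rw [← h0]; simp
    · have p1 := Pr_pos hμ XY h0
      have p2 := Pr_pos hμ Y h0
      have p3 := hq ω h0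
      rw [← mul_sub]
      refine mul_le_mul_of_nonneg_left ?_ h0.le
      have h2 := log_le_sub_one_of_pos (x := q (Y ω) (X ω) * Pr μ Y (Y ω) / Pr μ XY (XY ω))
        (by positivity)
      have h3 : log (q (Y ω) (X ω) * Pr μ Y (Y ω) / Pr μ XY (XY ω)) =
          log (q (Y ω) (X ω)) - log (Pr μ XY (XY ω) / Pr μ Y (Y ω)) := by
        rw [log_div (by positivity) p1.ne', log_mul p3.ne' p2.ne', log_div p1.ne' p2.ne']; ring
      linarith
  refine le_trans ?_ (sum_le_sum fun ω _ => h1 ω)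
  have h4 : ∑ ω, μ ω * (1 - q (Y ω) (X ω) * Pr μ Y (Y ω) / Pr μ XY (XY ω)) =
      1 - ∑ ω, μ ω * (q (Y ω) (X ω) * Pr μ Y (Y ω) / Pr μ XY (XY ω)) := by
    have e : ∀ ω, μ ω * (1 - q (Y ω) (X ω) * Pr μ Y (Y ω) / Pr μ XY (XY ω)) =
        μ ω - μ ω * (q (Y ω) (X ω) * Pr μ Y (Y ω) / Pr μ XY (XY ω)) := fun ω => by ring
    rw [sum_congr rfl fun ω _ => e ω, sum_sub_distrib, hμ.sum]
  rw [h4]
  have h5 : ∑ ω, μ ω * (q (Y ω) (X ω) * Pr μ Y (Y ω) / Pr μ XY (XY ω)) ≤ 1 := by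
    have h6 := sum_fiber μ XY (fun p => q p.2 p.1 * Pr μ Y p.2 / Pr μ XY p)
    have h6' : ∑ ω, μ ω * (q (Y ω) (X ω) * Pr μ Y (Y ω) / Pr μ XY (XY ω)) =
        ∑ x ∈ univ.image XY, Pr μ XY x * (q x.2 x.1 * Pr μ Y x.2 / Pr μ XY x) := h6
    rw [h6']
    have h7 : ∀ p ∈ univ.image XY, Pr μ XY p * (q p.2 p.1 * Pr μ Y p.2 / Pr μ XY p) ≤
        q p.2 p.1 * Pr μ Y p.2 := by
      intro p hp
      obtain ⟨ω, -, rfl⟩ := mem_image.mp hp
      rcases (Pr_nonneg hμ XY (XY ω)).eq_or_lt with h0 | h0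
      · rw [← h0, zero_mul]
        exact mul_nonneg (hq0 ω _ (mem_image_of_mem X (mem_univ ω))) (Pr_nonneg hμ _ _)
      · rw [mul_div_cancel₀ _ h0.ne']
    refine (sum_le_sum h7).trans ?_
    have h8 : (univ.image XY) ⊆ (univ.image X) ×ˢ (univ.image Y) := by
      intro p hp
      obtain ⟨ω, -, rfl⟩ := mem_image.mp hp
      exact mem_product.mpr ⟨mem_image_of_mem X (mem_univ ω), mem_image_of_mem Y (mem_univ ω)⟩
    have h9 : ∑ p ∈ univ.image XY, q p.2 p.1 * Pr μ Y p.2 ≤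
        ∑ p ∈ (univ.image X) ×ˢ (univ.image Y), q p.2 p.1 * Pr μ Y p.2 := by
      refine sum_le_sum_of_subset_of_nonneg h8 fun p hp _ => ?_
      obtain ⟨hp1, hp2⟩ := mem_product.mp hp
      obtain ⟨ω, -, hω⟩ := mem_image.mp hp2
      rw [← hω]
      exact mul_nonneg (hq0 ω _ hp1) (Pr_nonneg hμ _ _)
    refine h9.trans ?_
    rw [sum_product_right]
    calc ∑ y ∈ univ.image Y, ∑ x ∈ univ.image X, q y x * Pr μ Y y
        ≤ ∑ y ∈ univ.image Y, Pr μ Y y := by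
          refine sum_le_sum fun y hy => ?_
          obtain ⟨ω, -, rfl⟩ := mem_image.mp hy
          rw [← sum_mul]
          exact mul_le_of_le_one_left (Pr_nonneg hμ _ _) (hq1 ω)
      _ = 1 := sum_Pr hμ Y
  linarith

/-- conditioning on more decreases entropy -/
theorem Hc_anti (hμ : IsProb μ) (X : Ω → α) (h : Det Y Z) : Hc μ X Y ≤ Hc μ X Z := by
  classical
  -- choose a function `f` with `Z = f ∘ Y`
  rcases isEmpty_or_nonempty Ω with hΩ | ⟨⟨ω₀⟩⟩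
  · simp [Hc, H]
  let f : β → γ := fun y => if hy : ∃ ω, Y ω = y then Z hy.choose else Z ω₀
  have hf : ∀ ω, f (Y ω) = Z ω := by
    intro ω
    have hy : ∃ ω', Y ω' = Y ω := ⟨ω, rfl⟩
    have : f (Y ω) = Z hy.choose := dif_pos hy
    rw [this]
    exact h _ _ hy.choose_spec
  have h1 := gibbs hμ X Y (fun y x => Pr μ (fun ω => (X ω, Z ω)) (x, f y) / Pr μ Z (f y)) ?_ ?_ ?_
  · refine h1.trans (le_of_eq ?_)
    rw [Hc_eq_sum hμ]
    exact sum_congr rfl fun ω _ => by simp only [hf]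
  · intro ω h0
    simp only [hf]
    have p1 := Pr_pos hμ (fun ω => (X ω, Z ω)) h0
    have p2 := Pr_pos hμ Z h0
    exact div_pos p1 p2
  · intro ω x _
    exact div_nonneg (Pr_nonneg hμ _ _) (Pr_nonneg hμ _ _)
  · intro ω
    simp only [hf]
    rw [← sum_div, sum_Pr_pair]
    exact div_self_le_one _

lemma Hc_le_H (hμ : IsProb μ) (X : Ω → α) (Y : Ω → β) : Hc μ X Y ≤ H μ X := by
  rw [← Hc_const hμ X ()]
  exact Hc_anti hμ X (det_const Y ())

lemma H_pair_le (hμ : IsProb μ) (X : Ω → α) (Y : Ω → β) :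
    H μ (fun ω => (X ω, Y ω)) ≤ H μ X + H μ Y := by
  rw [H_pair]
  have := Hc_le_H hμ X Y
  linarith

lemma Hc_pair_le (hμ : IsProb μ) (X : Ω → α) (Y : Ω → β) (Z : Ω → γ) :
    Hc μ (fun ω => (X ω, Y ω)) Z ≤ Hc μ X Z + Hc μ Y Z := by
  rw [Hc_pair]
  have := Hc_anti hμ X (det_snd Y Z)
  linarith

/-- `H (X | Z) ≤ H (X | Y, Z) + H (Y | Z)` -/
lemma Hc_le_add (hμ : IsProb μ) (X : Ω → α) (Y : Ω → β) (Z : Ω → γ) :
    Hc μ X Z ≤ Hc μ X (fun ω => (Y ω, Z ω)) + Hc μ Y Z := by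
  have h1 := Hc_pair μ X Y Z
  have h2 := Hc_mono_left (Y := Z) hμ (det_fst X Y)
  linarith

/-- triangle inequality `H (X | Z) ≤ H (X | Y) + H (Y | Z)` -/
lemma Hc_triangle (hμ : IsProb μ) (X : Ω → α) (Y : Ω → β) (Z : Ω → γ) :
    Hc μ X Z ≤ Hc μ X Y + Hc μ Y Z := by
  have h1 := Hc_le_add hμ X Y Z
  have h2 := Hc_anti hμ X (det_fst Y Z)
  linarith

/-- entropy is at most the logarithm of the number of values, conditional form -/
theorem Hc_le_log (hμ : IsProb μ) (X : Ω → α) (Y : Ω → β) (K : ℕ) (hK : 0 < K)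
    (h : ∀ ω, ∃ s : Finset α, s.card ≤ K ∧ ∀ ω', Y ω' = Y ω → X ω' ∈ s) :
    Hc μ X Y ≤ log K := by
  classical
  have h1 := gibbs hμ X Y
    (fun y x => if ∃ ω', Y ω' = y ∧ X ω' = x then (1 : ℝ) / K else 0) ?_ ?_ ?_
  · refine h1.trans (le_of_eq ?_)
    have : ∀ ω, μ ω * (- log (if ∃ ω', Y ω' = Y ω ∧ X ω' = X ω then (1 : ℝ) / K else 0)) =
        μ ω * log K := by
      intro ω
      rw [if_pos ⟨ω, rfl, rfl⟩, one_div, log_inv, neg_neg]
    rw [sum_congr rfl fun ω _ => this ω, ← sum_mul, hμ.sum, one_mul]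
  · intro ω _
    rw [if_pos ⟨ω, rfl, rfl⟩]; positivity
  · intro ω x _
    split_ifs
    · positivity
    · exact le_rfl
  · intro ω
    obtain ⟨s, hs, hs'⟩ := h ω
    rw [sum_ite, sum_const_zero, add_zero, sum_const, nsmul_eq_mul]
    have : ((univ.image X).filter fun x => ∃ ω', Y ω' = Y ω ∧ X ω' = x) ⊆ s := by
      intro x hx
      obtain ⟨_, ω', h1, rfl⟩ := mem_filter.mp hx
      exact hs' ω' h1
    have h2 : (((univ.image X).filter fun x => ∃ ω', Y ω' = Y ω ∧ X ω' = x).card : ℝ) ≤ K := by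
      exact_mod_cast (card_le_card this).trans hs
    have hK' : (0 : ℝ) < K := by exact_mod_cast hK
    rw [mul_one_div, div_le_one hK']
    exact h2

lemma H_le_log (hμ : IsProb μ) (X : Ω → α) (s : Finset α) (hs : ∀ ω, X ω ∈ s) (h0 : 0 < s.card) :
    H μ X ≤ log s.card := by
  rw [← Hc_const hμ X ()]
  exact Hc_le_log hμ X _ s.card h0 fun ω => ⟨s, le_rfl, fun ω' _ => hs ω'⟩

/-! ## Mutual information -/

lemma I_nonneg (hμ : IsProb μ) (X : Ω → α) (Y : Ω → β) (Z : Ω → γ) : 0 ≤ I μ X Y Z :=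
  sub_nonneg.mpr (Hc_anti hμ X (det_snd Y Z))

lemma I_le_Hc (hμ : IsProb μ) (X : Ω → α) (Y : Ω → β) (Z : Ω → γ) : I μ X Y Z ≤ Hc μ X Z := by
  have := Hc_nonneg hμ X (fun ω => (Y ω, Z ω))
  unfold I; linarith

lemma I_symm (μ : Ω → ℝ) (X : Ω → α) (Y : Ω → β) (Z : Ω → γ) : I μ X Y Z = I μ Y X Z := by
  unfold I
  have h1 := Hc_pair μ X Y Z
  have h2 := Hc_pair μ Y X Z
  have h3 : Hc μ (fun ω => (X ω, Y ω)) Z = Hc μ (fun ω => (Y ω, X ω)) Z :=
    Hc_congr (det_swap X Y) (det_swap Y X) (Det.refl Z) (Det.refl Z)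
  linarith

lemma I_le_Hc' (hμ : IsProb μ) (X : Ω → α) (Y : Ω → β) (Z : Ω → γ) : I μ X Y Z ≤ Hc μ Y Z := by
  rw [I_symm]; exact I_le_Hc hμ Y X Z

lemma I_congr {α' β' γ' : Type*} {X' : Ω → α'} {Y' : Ω → β'} {Z' : Ω → γ'}
    (h1 : Det X X') (h2 : Det X' X) (h3 : Det Y Y') (h4 : Det Y' Y) (h5 : Det Z Z')
    (h6 : Det Z' Z) : I μ X Y Z = I μ X' Y' Z' := by
  unfold I
  rw [Hc_congr h1 h2 h5 h6, Hc_congr h1 h2 (((det_fst Y Z).trans h3).pair ((det_snd Y Z).trans h5))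
    (((det_fst Y' Z').trans h4).pair ((det_snd Y' Z').trans h6))]

/-- data processing -/
lemma I_mono_right (hμ : IsProb μ) (X : Ω → α) {Y : Ω → β} {W : Ω → δ} (Z : Ω → γ)
    (h : Det Y W) : I μ X W Z ≤ I μ X Y Z := by
  unfold I
  have := Hc_anti hμ X (((det_fst Y Z).trans h).pair (det_snd Y Z))
  linarith

lemma I_mono_left (hμ : IsProb μ) {X : Ω → α} {W : Ω → δ} (Y : Ω → β) (Z : Ω → γ)
    (h : Det X W) : I μ W Y Z ≤ I μ X Y Z := by
  rw [I_symm μ W, I_symm μ X]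
  exact I_mono_right hμ Y Z h

/-- **Chain rule**: `I (X; (Y, W) | Z) = I (X; W | Z) + I (X; Y | W, Z)` -/
lemma I_chain (μ : Ω → ℝ) (X : Ω → α) (Y : Ω → β) (W : Ω → δ) (Z : Ω → γ) :
    I μ X (fun ω => (Y ω, W ω)) Z = I μ X W Z + I μ X Y (fun ω => (W ω, Z ω)) := by
  unfold I
  have : Hc μ X (fun ω => ((Y ω, W ω), Z ω)) = Hc μ X (fun ω => (Y ω, (W ω, Z ω))) := by
    refine Hc_congr (Det.refl X) (Det.refl X) ?_ ?_
    · exact ((det_fst _ _).trans (det_fst Y W)).pair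
        (((det_fst _ _).trans (det_snd Y W)).pair (det_snd _ _))
    · exact ((det_fst _ _).pair ((det_snd _ _).trans (det_fst W Z))).pair
        ((det_snd _ _).trans (det_snd W Z))
  rw [this]; ring

/-- `I (X; Y | Z) = 0` if `X` is a function of `Z` -/
lemma I_eq_zero (hμ : IsProb μ) (Y : Ω → β) (h : Det Z X) : I μ X Y Z = 0 := by
  refine le_antisymm ?_ (I_nonneg hμ X Y Z)
  refine (I_le_Hc hμ X Y Z).trans (le_of_eq ?_)
  exact Hc_eq_zero h

/-- **Telescoping along a filtration**: `R j` is a function of `R (j+1)`; the informations add up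
to the information of the last variable. -/
theorem sum_I_filtration (X : Ω → α) {ρ : ℕ → Type*} (R : ∀ j, Ω → ρ j)
    (h : ∀ j, Det (R (j + 1)) (R j)) (n : ℕ) :
    ∑ j ∈ range n, I μ X (R (j + 1)) (R j) = Hc μ X (R 0) - Hc μ X (R n) := by
  induction n with
  | zero => simp
  | succ n ih =>
    rw [sum_range_succ, ih]
    have : I μ X (R (n + 1)) (R n) = Hc μ X (R n) - Hc μ X (R (n + 1)) := by
      unfold I
      rw [Hc_congr (X := X) (Y := fun ω => (R (n + 1) ω, R n ω)) (X' := X) (Y' := R (n + 1))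
        (Det.refl X) (Det.refl X) (det_fst _ _) ((Det.refl _).pair (h n))]
    rw [this]; ring

end ent

end Vale.Agent.P065.Ent
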