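import Vale.Agent.P065.H587.Ent2

/-!
# P065, package FILL: the local fill step

`m (X = x₁, b ∈ A) ≤ m (X = x₁, b ∈ A + h) + Err` for intervals `A`, from near independence of
`X` and `(E, C)` on the cell `L` and of `E` and `(X, B)` on the cell `P`, where `b = c + e x`.
-/

set_option autoImplicit false

open Finset Real

noncomputable section

namespace Vale.Agent.P065.Ent

variable {Ω : Type*} [Fintype Ω] {α β γ δ : Type*}

section meas
variable {μ : Ω → ℝ}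

open Classical in
lemma PE_def (μ : Ω → ℝ) (A : Ω → Prop) : PE μ A = ∑ ω, if A ω then μ ω else 0 :=
  PE_eq μ A

lemma PE_nonneg (hμ : IsProb μ) (A : Ω → Prop) : 0 ≤ PE μ A := Pr_nonneg hμ A True

lemma PE_le_one (hμ : IsProb μ) (A : Ω → Prop) : PE μ A ≤ 1 := Pr_le_one hμ A True

lemma PE_mono (hμ : IsProb μ) {A B : Ω → Prop} (h : ∀ ω, A ω → B ω) : PE μ A ≤ PE μ B := by
  classical
  rw [PE_def, PE_def]
  refine sum_le_sum fun ω _ => ?_
  by_cases ha : A ω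
  · rw [if_pos ha, if_pos (h ω ha)]
  · rw [if_neg ha]
    split_ifs
    · exact hμ.nonneg ω
    · exact le_rfl

lemma PE_congr {A B : Ω → Prop} (h : ∀ ω, A ω ↔ B ω) : PE μ A = PE μ B := by
  have : A = B := funext fun ω => propext (h ω)
  rw [this]

/-- disjoint events inside `B` -/
lemma sum_PE_le (hμ : IsProb μ) {ι : Type*} (s : Finset ι) (A : ι → Ω → Prop) (B : Ω → Prop)
    (hA : ∀ i ∈ s, ∀ ω, A i ω → B ω)
    (hd : ∀ i ∈ s, ∀ j ∈ s, i ≠ j → ∀ ω, A i ω → ¬ A j ω) :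
    ∑ i ∈ s, PE μ (A i) ≤ PE μ B := by
  classical
  rw [sum_congr rfl fun i _ => PE_def μ (A i), sum_comm, PE_def]
  refine sum_le_sum fun ω _ => ?_
  by_cases hB : B ω
  · rw [if_pos hB]
    by_cases hex : ∃ i ∈ s, A i ω
    · obtain ⟨i, hi, hAi⟩ := hex
      rw [sum_eq_single i]
      · rw [if_pos hAi]
      · intro j hj hji
        rw [if_neg (hd i hi j hj (Ne.symm hji) ω hAi)]
      · intro h; exact absurd hi h
    · push Not at hex
      rw [sum_eq_zero fun i hi => if_neg (hex i hi)]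
      exact hμ.nonneg ω
  · rw [if_neg hB]
    refine (sum_eq_zero fun i hi => if_neg fun h => hB (hA i hi ω h)).le

/-- union bound -/
lemma PE_le_sum (hμ : IsProb μ) {ι : Type*} (s : Finset ι) (A : ι → Ω → Prop) (B : Ω → Prop)
    (hA : ∀ ω, B ω → ∃ i ∈ s, A i ω) : PE μ B ≤ ∑ i ∈ s, PE μ (A i) := by
  classical
  rw [sum_congr rfl fun i _ => PE_def μ (A i), sum_comm, PE_def]
  refine sum_le_sum fun ω _ => ?_
  have h0 : ∀ i ∈ s, 0 ≤ if A i ω then μ ω else 0 := fun i _ => by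
    split_ifs
    · exact hμ.nonneg ω
    · exact le_rfl
  by_cases hB : B ω
  · rw [if_pos hB]
    obtain ⟨i, hi, hAi⟩ := hA ω hB
    have := single_le_sum h0 hi
    rwa [if_pos hAi] at this
  · rw [if_neg hB]
    exact sum_nonneg h0

end meas

/-- near independence of `X` and `Y` on the event `Q` -/
def QInd (μ : Ω → ℝ) (Q : Ω → Prop) (X : Ω → α) (Y : Ω → β) (κ : ℝ) : Prop :=
  ∀ (x : α) (S : Set β), |PE μ (fun ω => X ω = x ∧ Y ω ∈ S ∧ Q ω) * PE μ Q -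
    PE μ (fun ω => X ω = x ∧ Q ω) * PE μ (fun ω => Y ω ∈ S ∧ Q ω)| ≤ κ * PE μ Q ^ 2

section qind
variable {μ : Ω → ℝ}

lemma PE_cE (μ : Ω → ℝ) (Q A : Ω → Prop) :
    PE (cE μ Q) A = PE μ (fun ω => A ω ∧ Q ω) / PE μ Q := by
  classical
  have h := Pr_cnd μ A Q True True
  have h2 : Pr μ (fun ω => (A ω, Q ω)) (True, True) = PE μ (fun ω => A ω ∧ Q ω) := by
    unfold PE Pr
    refine sum_congr rfl fun ω _ => ?_
    by_cases ha : A ω <;> by_cases hq : Q ω <;> simp [ha, hq]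
  rw [h2] at h
  exact h

/-- small mutual information gives near independence -/
theorem qind_of_I (hμ : IsProb μ) {Q : Ω → Prop} (hQ : 0 < PE μ Q) (X : Ω → α) (Y : Ω → β)
    {d : ℝ} (hI : I (cE μ Q) X Y (fun _ => ()) ≤ d) : QInd μ Q X Y (2 * √ d) := by
  classical
  intro x S
  set ν := cE μ Q with hν
  have hνp : IsProb ν := cnd_isProb hμ hQ
  -- reduction to the conditional law
  have key : |PE ν (fun ω => X ω = x ∧ Y ω ∈ S) - PE ν (fun ω => X ω = x) *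
      PE ν (fun ω => Y ω ∈ S)| ≤ 2 * √ d := by
    have h1 := tv_I hνp X Y (fun _ : Ω => ())
    have h2 : 2 * √ (I ν X Y (fun _ => ())) ≤ 2 * √ d :=
      mul_le_mul_of_nonneg_left (sqrt_le_sqrt hI) (by norm_num)
    refine le_trans ?_ (h1.trans h2)
    -- both sides as sums over values
    by_cases hx : x ∈ univ.image X
    · set T : Finset β := (univ.image Y).filter fun y => y ∈ S with hT
      have e1 : PE ν (fun ω => X ω = x ∧ Y ω ∈ S) =
          ∑ y ∈ T, Pr ν (fun ω => (X ω, Y ω, ())) (x, y, ()) := by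
        rw [PE_def]
        have : ∀ y ∈ T, Pr ν (fun ω => (X ω, Y ω, ())) (x, y, ()) =
            ∑ ω, if X ω = x ∧ Y ω = y then ν ω else 0 := by
          intro y _
          unfold Pr
          refine sum_congr rfl fun ω _ => ?_
          simp
        rw [sum_congr rfl this, sum_comm]
        refine sum_congr rfl fun ω _ => ?_
        by_cases h : X ω = x ∧ Y ω ∈ S
        · rw [if_pos h, sum_eq_single (Y ω)]
          · rw [if_pos ⟨h.1, rfl⟩]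
          · intro y _ hy
            rw [if_neg fun h' => hy h'.2.symm]
          · intro h'
            exact absurd (mem_filter.mpr ⟨mem_image_of_mem Y (mem_univ ω), h.2⟩) h'
        · rw [if_neg h]
          symm
          refine sum_eq_zero fun y hy => if_neg fun h' => h ⟨h'.1, ?_⟩
          rw [h'.2]; exact (mem_filter.mp hy).2
      have e2 : PE ν (fun ω => Y ω ∈ S) = ∑ y ∈ T, Pr ν (fun ω => (Y ω, ())) (y, ()) := by
        rw [PE_def]
        have : ∀ y ∈ T, Pr ν (fun ω => (Y ω, ())) (y, ()) =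
            ∑ ω, if Y ω = y then ν ω else 0 := by
          intro y _
          unfold Pr
          refine sum_congr rfl fun ω _ => ?_
          simp
        rw [sum_congr rfl this, sum_comm]
        refine sum_congr rfl fun ω _ => ?_
        by_cases h : Y ω ∈ S
        · rw [if_pos h, sum_eq_single (Y ω)]
          · rw [if_pos rfl]
          · intro y _ hy
            rw [if_neg fun h' => hy h'.symm]
          · intro h'
            exact absurd (mem_filter.mpr ⟨mem_image_of_mem Y (mem_univ ω), h⟩) h'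
        · rw [if_neg h]
          symm
          refine sum_eq_zero fun y hy => if_neg fun h' => h ?_
          rw [h']; exact (mem_filter.mp hy).2
      have e3 : PE ν (fun ω => X ω = x) = Pr ν (fun ω => (X ω, ())) (x, ()) := by
        rw [PE_def]
        unfold Pr
        refine sum_congr rfl fun ω _ => ?_
        simp
      have e4 : Pr ν (fun _ : Ω => ()) () = 1 := by
        unfold Pr
        simp [hνp.sum]
      rw [e1, e2, e3, mul_sum, ← sum_sub_distrib]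
      refine (abs_sum_le_sum_abs _ _).trans ?_
      have hsub : T.map ⟨fun y => (x, y, ()), fun a b h => by
          simpa using h⟩ ⊆ univ.image X ×ˢ univ.image Y ×ˢ univ.image (fun _ : Ω => ()) := by
        intro t ht
        obtain ⟨y, hy, rfl⟩ := mem_map.mp ht
        have hy' := (mem_filter.mp hy).1
        obtain ⟨ω, -, -⟩ := mem_image.mp hy'
        exact mem_product.mpr ⟨hx, mem_product.mpr ⟨hy', mem_image.mpr ⟨ω, mem_univ ω, rfl⟩⟩⟩
      refine le_trans (le_of_eq ?_) (sum_le_sum_of_subset_of_nonneg hsub fun _ _ _ => abs_nonneg _)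
      rw [sum_map]
      refine sum_congr rfl fun y _ => ?_
      show _ = |Pr ν (fun ω => (X ω, Y ω, ())) (x, y, ()) - Pr ν (fun ω => (X ω, ())) (x, ()) *
        Pr ν (fun ω => (Y ω, ())) (y, ()) / Pr ν (fun _ : Ω => ()) ()|
      rw [e4, div_one]
    · have hx' : ∀ ω, X ω ≠ x := fun ω h => hx (h ▸ mem_image_of_mem X (mem_univ ω))
      have e1 : PE ν (fun ω => X ω = x ∧ Y ω ∈ S) = 0 := by
        rw [PE_def]
        exact sum_eq_zero fun ω _ => if_neg fun h => hx' ω h.1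
      have e3 : PE ν (fun ω => X ω = x) = 0 := by
        rw [PE_def]
        exact sum_eq_zero fun ω _ => if_neg (hx' ω)
      rw [e1, e3, zero_mul, sub_zero, abs_zero]
      exact sum_nonneg fun _ _ => abs_nonneg _
  rw [PE_cE, PE_cE, PE_cE] at key
  have e1 : PE μ (fun ω => (X ω = x ∧ Y ω ∈ S) ∧ Q ω) =
      PE μ (fun ω => X ω = x ∧ Y ω ∈ S ∧ Q ω) := PE_congr fun ω => and_assoc
  rw [e1] at key
  have e2 : PE μ (fun ω => X ω = x ∧ Y ω ∈ S ∧ Q ω) / PE μ Q -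
      PE μ (fun ω => X ω = x ∧ Q ω) / PE μ Q * (PE μ (fun ω => Y ω ∈ S ∧ Q ω) / PE μ Q) =
      (PE μ (fun ω => X ω = x ∧ Y ω ∈ S ∧ Q ω) * PE μ Q - PE μ (fun ω => X ω = x ∧ Q ω) *
        PE μ (fun ω => Y ω ∈ S ∧ Q ω)) / PE μ Q ^ 2 := by
    field_simp
  rw [e2, abs_div, abs_of_pos (by positivity : (0 : ℝ) < PE μ Q ^ 2),
    div_le_iff₀ (by positivity)] at key
  exact key

end qind

/-! ## The local fill step -/

/-- the algebra of `Box.half` -/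
lemma alg_half {f m1 m2 u u2 v1 v2 w a1 a2 qL qP κ : ℝ} (pqL : 0 < qL) (pqP : 0 < qP)
    (pa1 : 0 ≤ a1) (pa2 : 0 ≤ a2) (j1 : f * m1 ≤ u * qP + κ * qP ^ 2) (k2 : u ≤ v1)
    (j2 : v1 * qL ≤ a1 * w + κ * qL ^ 2) (j3 : a2 * w ≤ v2 * qL + κ * qL ^ 2) (k5 : v2 ≤ u2)
    (j4 : u2 * qP ≤ f * m2 + κ * qP ^ 2) :
    a2 * f * m1 ≤ a1 * f * m2 + κ * (a1 + a2) * qP * (qP + qL) := by
  have j5 : a2 * v1 ≤ a1 * v2 + κ * (a1 + a2) * qL := by
    have h3 : a2 * (v1 * qL) ≤ a2 * (a1 * w + κ * qL ^ 2) := mul_le_mul_of_nonneg_left j2 pa2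
    have h4 : a1 * (a2 * w) ≤ a1 * (v2 * qL + κ * qL ^ 2) := mul_le_mul_of_nonneg_left j3 pa1
    have h5 : (a2 * v1) * qL ≤ (a1 * v2 + κ * (a1 + a2) * qL) * qL := by linarith
    exact le_of_mul_le_mul_right h5 pqL
  have j6 : a2 * (f * m1) ≤ a2 * (u * qP + κ * qP ^ 2) := mul_le_mul_of_nonneg_left j1 pa2
  have j7 : a2 * u ≤ a2 * v1 := mul_le_mul_of_nonneg_left k2 pa2
  have j8 : a1 * v2 ≤ a1 * u2 := mul_le_mul_of_nonneg_left k5 pa1
  have j9 : (a2 * u) * qP ≤ (a1 * u2 + κ * (a1 + a2) * qL) * qP :=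
    mul_le_mul_of_nonneg_right (by linarith) pqP.le
  have j10 : a1 * (u2 * qP) ≤ a1 * (f * m2 + κ * qP ^ 2) := mul_le_mul_of_nonneg_left j4 pa1
  linarith

/-- the algebra of `Box.qi` -/
lemma alg_qi {f1 f2 m1 m2 m3 a1 a2 qL qP κ η : ℝ} (hκ : 0 ≤ κ) (hη : 0 < η) (pqL : 0 < qL)
    (pqP : 0 < qP) (la1 : a1 ≤ qL) (la2 : a2 ≤ qL) (hx2 : η * qL ≤ a2)
    (he1 : η * qP ≤ f1) (he2 : η * qP ≤ f2)
    (d1 : a2 * f1 * m1 ≤ a1 * f1 * m2 + κ * (a1 + a2) * qP * (qP + qL))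
    (d2 : a1 * f2 * m2 ≤ a2 * f2 * m3 + κ * (a2 + a1) * qP * (qP + qL)) :
    m1 ≤ m3 + 4 * κ * (qP + qL) / η ^ 2 := by
  have pa2 : 0 < a2 := lt_of_lt_of_le (by positivity) hx2
  have pf1 : 0 < f1 := lt_of_lt_of_le (by positivity) he1
  have pf2 : 0 < f2 := lt_of_lt_of_le (by positivity) he2
  obtain ⟨K, hK⟩ : ∃ K, K = κ * (a1 + a2) * qP * (qP + qL) := ⟨_, rfl⟩
  have hK' : κ * (a2 + a1) * qP * (qP + qL) = K := by rw [hK, add_comm a2 a1]
  rw [← hK] at d1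
  rw [hK'] at d2
  have e1 : f2 * (a2 * f1 * m1) ≤ f2 * (a1 * f1 * m2 + K) := mul_le_mul_of_nonneg_left d1 pf2.le
  have e2 : f1 * (a1 * f2 * m2) ≤ f1 * (a2 * f2 * m3 + K) := mul_le_mul_of_nonneg_left d2 pf1.le
  have e3 : (f1 * f2 * a2) * m1 ≤ (f1 * f2 * a2) * m3 + (f1 + f2) * K := by linarith
  have hK2 : K ≤ κ * (2 * qL) * qP * (qP + qL) := by
    rw [hK]
    have h6 : κ * (a1 + a2) ≤ κ * (2 * qL) := mul_le_mul_of_nonneg_left (by linarith) hκ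
    have h5 : 0 ≤ qP * (qP + qL) := by positivity
    have h7 := mul_le_mul_of_nonneg_right h6 h5
    linarith
  have e4 : (f1 + f2) * K ≤ (f1 * f2 * a2) * (4 * κ * (qP + qL) / η ^ 2) := by
    rw [mul_div_assoc', le_div_iff₀ (by positivity)]
    have g1 : (η * qP) * f1 ≤ f2 * f1 := mul_le_mul_of_nonneg_right he2 pf1.le
    have g2 : (η * qP) * f2 ≤ f1 * f2 := mul_le_mul_of_nonneg_right he1 pf2.le
    have g3 : (f1 + f2) * (η * qP) ≤ 2 * (f1 * f2) := by linarith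
    have g4 : (f1 + f2) * K * η ^ 2 ≤ (f1 + f2) * (κ * (2 * qL) * qP * (qP + qL)) * η ^ 2 :=
      mul_le_mul_of_nonneg_right (mul_le_mul_of_nonneg_left hK2 (by positivity)) (by positivity)
    refine g4.trans ?_
    have g5 : (f1 + f2) * (κ * (2 * qL) * qP * (qP + qL)) * η ^ 2 =
        ((f1 + f2) * (η * qP)) * (η * qL) * (2 * κ * (qP + qL)) := by ring
    rw [g5]
    have g6 : ((f1 + f2) * (η * qP)) * (η * qL) ≤ 2 * (f1 * f2) * a2 :=
      mul_le_mul g3 hx2 (by positivity) (by positivity)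
    have g7 : 0 ≤ 2 * κ * (qP + qL) := by positivity
    calc ((f1 + f2) * (η * qP)) * (η * qL) * (2 * κ * (qP + qL)) ≤
        2 * (f1 * f2) * a2 * (2 * κ * (qP + qL)) := mul_le_mul_of_nonneg_right g6 g7
      _ = f1 * f2 * a2 * (4 * κ * (qP + qL)) := by ring
  have e5 : (f1 * f2 * a2) * m1 ≤ (f1 * f2 * a2) * (m3 + 4 * κ * (qP + qL) / η ^ 2) := by
    rw [mul_add]; linarith
  exact le_of_mul_le_mul_left e5 (by positivity)

section fill
variable {μ : Ω → ℝ} {ξ ε η₁ η₂ : Type*}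

/-- the data of a box: digit labels with representatives, `b = c + e x` up to `σ` -/
structure Box (μ : Ω → ℝ) (X : Ω → ξ) (E : Ω → ε) (C : Ω → η₁) (B : Ω → η₂) (xh : ξ → ℝ)
    (eh : ε → ℝ) (ch : η₁ → ℝ) (bh : η₂ → ℝ) (L P : Ω → Prop) (J : Set ℝ) (σ κ : ℝ) : Prop where
  prob : IsProb μ
  rel : ∀ ω, |bh (B ω) - (ch (C ω) + eh (E ω) * xh (X ω))| ≤ σ
  inL : ∀ ω, bh (B ω) ∈ J → L ω
  inP : ∀ ω, bh (B ω) ∈ J → P ω
  indL : QInd μ L X (fun ω => (E ω, C ω)) κ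
  indP : QInd μ P E (fun ω => (X ω, B ω)) κ
  posL : 0 < PE μ L
  posP : 0 < PE μ P

variable {X : Ω → ξ} {E : Ω → ε} {C : Ω → η₁} {B : Ω → η₂} {xh : ξ → ℝ}
    {eh : ε → ℝ} {ch : η₁ → ℝ} {bh : η₂ → ℝ} {L P : Ω → Prop} {J : Set ℝ} {σ κ : ℝ}

/-- from time `x₁` to time `x₂` along lines of slope `e₁` -/
theorem Box.half (D : Box μ X E C B xh eh ch bh L P J σ κ) (x₁ x₂ : ξ) (e₁ : ε) (a b : ℝ)
    (h1 : Set.Icc a b ⊆ J)
    (h2 : Set.Icc (a - 2 * σ + eh e₁ * (xh x₂ - xh x₁)) (b + 2 * σ + eh e₁ * (xh x₂ - xh x₁)) ⊆ J) :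
    PE μ (fun ω => X ω = x₂ ∧ L ω) * PE μ (fun ω => E ω = e₁ ∧ P ω) *
      PE μ (fun ω => X ω = x₁ ∧ bh (B ω) ∈ Set.Icc a b) ≤
    PE μ (fun ω => X ω = x₁ ∧ L ω) * PE μ (fun ω => E ω = e₁ ∧ P ω) *
      PE μ (fun ω => X ω = x₂ ∧ bh (B ω) ∈ Set.Icc (a - 2 * σ + eh e₁ * (xh x₂ - xh x₁))
        (b + 2 * σ + eh e₁ * (xh x₂ - xh x₁))) +
    κ * (PE μ (fun ω => X ω = x₁ ∧ L ω) + PE μ (fun ω => X ω = x₂ ∧ L ω)) * PE μ P *
      (PE μ P + PE μ L) := by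
  have hμ := D.prob
  set s : ℝ := eh e₁ * (xh x₂ - xh x₁) with hs
  set A'' : Set ℝ := Set.Icc (a - 2 * σ + s) (b + 2 * σ + s) with hA''
  set S : Set (ε × η₁) := {t | t.1 = e₁ ∧ ch t.2 + eh e₁ * xh x₁ ∈ Set.Icc (a - σ) (b + σ)} with hS
  set m1 := PE μ (fun ω => X ω = x₁ ∧ bh (B ω) ∈ Set.Icc a b) with hm1
  set m2 := PE μ (fun ω => X ω = x₂ ∧ bh (B ω) ∈ A'') with hm2
  -- (1)
  have k1 := D.indP e₁ {t | t.1 = x₁ ∧ bh t.2 ∈ Set.Icc a b}
  have c1 : PE μ (fun ω => (X ω, B ω) ∈ ({t | t.1 = x₁ ∧ bh t.2 ∈ Set.Icc a b} : Set (ξ × η₂)) ∧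
      P ω) = m1 := PE_congr fun ω => ⟨fun h => h.1, fun h => ⟨h, D.inP ω (h1 h.2)⟩⟩
  rw [c1] at k1
  set u := PE μ (fun ω => E ω = e₁ ∧ (X ω, B ω) ∈
    ({t | t.1 = x₁ ∧ bh t.2 ∈ Set.Icc a b} : Set (ξ × η₂)) ∧ P ω) with hu
  -- (2)
  have k2 : u ≤ PE μ (fun ω => X ω = x₁ ∧ (E ω, C ω) ∈ S ∧ L ω) := by
    refine PE_mono hμ fun ω h => ?_
    obtain ⟨hE, ⟨hX, hB⟩, hP⟩ := h
    refine ⟨hX, ⟨hE, ?_⟩, D.inL ω (h1 hB)⟩
    have hr := abs_le.mp (D.rel ω)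
    have hX' : X ω = x₁ := hX
    have hE' : E ω = e₁ := hE
    rw [hX', hE'] at hr
    have hB' : a ≤ bh (B ω) ∧ bh (B ω) ≤ b := hB
    exact ⟨by linarith [hr.1, hr.2, hB'.1, hB'.2], by linarith [hr.1, hr.2, hB'.1, hB'.2]⟩
  set v1 := PE μ (fun ω => X ω = x₁ ∧ (E ω, C ω) ∈ S ∧ L ω) with hv1
  set v2 := PE μ (fun ω => X ω = x₂ ∧ (E ω, C ω) ∈ S ∧ L ω) with hv2
  set w := PE μ (fun ω => (E ω, C ω) ∈ S ∧ L ω) with hw
  -- (3)
  have k3 := D.indL x₁ S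
  have k4 := D.indL x₂ S
  -- (4)
  have k5 : v2 ≤ PE μ (fun ω => E ω = e₁ ∧ (X ω, B ω) ∈
      ({t | t.1 = x₂ ∧ bh t.2 ∈ A''} : Set (ξ × η₂)) ∧ P ω) := by
    refine PE_mono hμ fun ω h => ?_
    obtain ⟨hX, ⟨hE, hC⟩, hL⟩ := h
    have hr := abs_le.mp (D.rel ω)
    have hX' : X ω = x₂ := hX
    have hE' : E ω = e₁ := hE
    rw [hX', hE'] at hr
    have hC' : a - σ ≤ ch (C ω) + eh e₁ * xh x₁ ∧ ch (C ω) + eh e₁ * xh x₁ ≤ b + σ := hC
    have hsx : eh e₁ * xh x₂ = eh e₁ * xh x₁ + s := by rw [hs]; ring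
    have hB : bh (B ω) ∈ A'' := by
      rw [hsx] at hr
      exact ⟨by linarith [hr.1, hr.2, hC'.1, hC'.2], by linarith [hr.1, hr.2, hC'.1, hC'.2]⟩
    exact ⟨hE, ⟨hX, hB⟩, D.inP ω (h2 hB)⟩
  set u2 := PE μ (fun ω => E ω = e₁ ∧ (X ω, B ω) ∈
      ({t | t.1 = x₂ ∧ bh t.2 ∈ A''} : Set (ξ × η₂)) ∧ P ω) with hu2
  -- (5)
  have k6 := D.indP e₁ {t | t.1 = x₂ ∧ bh t.2 ∈ A''}
  have c2 : PE μ (fun ω => (X ω, B ω) ∈ ({t | t.1 = x₂ ∧ bh t.2 ∈ A''} : Set (ξ × η₂)) ∧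
      P ω) = m2 := PE_congr fun ω => ⟨fun h => h.1, fun h => ⟨h, D.inP ω (h2 h.2)⟩⟩
  rw [c2] at k6
  have k1' := (abs_le.mp k1).1
  have k3' := (abs_le.mp k3).2
  have k4' := (abs_le.mp k4).1
  have k6' := (abs_le.mp k6).2
  exact alg_half (w := w) D.posL D.posP (PE_nonneg hμ _) (PE_nonneg hμ _) (by linarith) k2
    (by linarith) (by linarith) k5 (by linarith)

/-- **(QI)**: quasi-invariance of the law of the rows at time `x₁` under translation by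
`h = (e₁ - e₂) (x₂ - x₁)`. -/
theorem Box.qi (D : Box μ X E C B xh eh ch bh L P J σ κ) (hκ : 0 ≤ κ) {η : ℝ} (hη : 0 < η)
    (x₁ x₂ : ξ) (e₁ e₂ : ε) (a b : ℝ)
    (hx2 : η * PE μ L ≤ PE μ (fun ω => X ω = x₂ ∧ L ω))
    (he1 : η * PE μ P ≤ PE μ (fun ω => E ω = e₁ ∧ P ω))
    (he2 : η * PE μ P ≤ PE μ (fun ω => E ω = e₂ ∧ P ω))
    (h1 : Set.Icc a b ⊆ J)
    (h2 : Set.Icc (a - 2 * σ + eh e₁ * (xh x₂ - xh x₁)) (b + 2 * σ + eh e₁ * (xh x₂ - xh x₁)) ⊆ J)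
    (h3 : Set.Icc (a - 4 * σ + (eh e₁ - eh e₂) * (xh x₂ - xh x₁))
      (b + 4 * σ + (eh e₁ - eh e₂) * (xh x₂ - xh x₁)) ⊆ J) :
    PE μ (fun ω => X ω = x₁ ∧ bh (B ω) ∈ Set.Icc a b) ≤
      PE μ (fun ω => X ω = x₁ ∧ bh (B ω) ∈ Set.Icc
        (a - 4 * σ + (eh e₁ - eh e₂) * (xh x₂ - xh x₁))
        (b + 4 * σ + (eh e₁ - eh e₂) * (xh x₂ - xh x₁))) +
      4 * κ * (PE μ P + PE μ L) / η ^ 2 := by
  have hμ := D.prob
  have d1 := D.half x₁ x₂ e₁ a b h1 h2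
  have eqa : a - 2 * σ + eh e₁ * (xh x₂ - xh x₁) - 2 * σ + eh e₂ * (xh x₁ - xh x₂) =
      a - 4 * σ + (eh e₁ - eh e₂) * (xh x₂ - xh x₁) := by ring
  have eqb : b + 2 * σ + eh e₁ * (xh x₂ - xh x₁) + 2 * σ + eh e₂ * (xh x₁ - xh x₂) =
      b + 4 * σ + (eh e₁ - eh e₂) * (xh x₂ - xh x₁) := by ring
  have d2 := D.half x₂ x₁ e₂ (a - 2 * σ + eh e₁ * (xh x₂ - xh x₁))
    (b + 2 * σ + eh e₁ * (xh x₂ - xh x₁)) h2 (by rw [eqa, eqb]; exact h3)
  rw [eqa, eqb] at d2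
  exact alg_qi hκ hη D.posL D.posP (PE_mono hμ fun ω h => h.2)
    (PE_mono hμ fun ω h => h.2) hx2 he1 he2 d1 d2

end fill

/-! ## Iteration -/

section iterate

/-- a nonnegative additive function of sets, quasi-invariant under translation by `h`, is small
on short intervals -/
theorem iterate_shift (m : Set ℝ → ℝ) (G : Set ℝ) (h s Err : ℝ) (N : ℕ) (hs : 0 ≤ s)
    (hErr : 0 ≤ Err)
    (hadd : ∀ (f g : ℕ → ℝ), (∀ j < N, Set.Icc (f j) (g j) ⊆ G) →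
      (∀ i < N, ∀ j < N, i ≠ j → Disjoint (Set.Icc (f i) (g i)) (Set.Icc (f j) (g j))) →
      ∑ j ∈ range N, m (Set.Icc (f j) (g j)) ≤ m G)
    (hqi : ∀ a b, Set.Icc a b ⊆ G → Set.Icc (a - s + h) (b + s + h) ⊆ G →
      m (Set.Icc a b) ≤ m (Set.Icc (a - s + h) (b + s + h)) + Err)
    (a b : ℝ) (hgap : (b - a) + (2 * N) * s < |h|)
    (hin : ∀ j < N, Set.Icc (a - j * s + j * h) (b + j * s + j * h) ⊆ G) :
    N * m (Set.Icc a b) ≤ m G + N ^ 2 * Err := by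
  -- the intervals
  set f : ℕ → ℝ := fun j => a - j * s + j * h with hf
  set g : ℕ → ℝ := fun j => b + j * s + j * h with hg
  have hstep : ∀ j < N, m (Set.Icc a b) ≤ m (Set.Icc (f j) (g j)) + j * Err := by
    intro j
    induction j with
    | zero => intro _; simp [hf, hg]
    | succ j ih =>
      intro hj
      have h1 := ih (by omega)
      have h2 := hin j (by omega)
      have h3 := hin (j + 1) hj
      have e1 : f j - s + h = f (j + 1) := by simp only [hf]; push_cast; ring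
      have e2 : g j + s + h = g (j + 1) := by simp only [hg]; push_cast; ring
      have h4 := hqi (f j) (g j) h2 (by rw [e1, e2]; exact h3)
      rw [e1, e2] at h4
      push_cast
      linarith
  have hsum : ∑ j ∈ range N, m (Set.Icc (f j) (g j)) ≤ m G := by
    apply hadd f g
    · intro j hj
      exact hin j hj
    · intro i hi j hj hij
      wlog hlt : i < j generalizing i j
      · exact (this j hj i hi (Ne.symm hij) (by omega)).symm
      rw [Set.disjoint_left]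
      intro t ht ht'
      have hi1 : (i : ℝ) + 1 ≤ j := by exact_mod_cast hlt
      have hjN : (j : ℝ) ≤ N := by exact_mod_cast hj.le
      have hjN' : (i : ℝ) + 1 ≤ N := by exact_mod_cast hi
      have t1 := ht.1
      have t2 := ht.2
      have t3 := ht'.1
      have t4 := ht'.2
      simp only [hf, hg] at t1 t2 t3 t4
      rcases le_or_gt 0 h with h0 | h0
      · rw [abs_of_nonneg h0] at hgap
        have : (j - i) * h ≤ (b - a) + (i + j) * s := by linarith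
        have h5 : h ≤ (j - i) * h := by nlinarith
        have h6 : ((i : ℝ) + j) * s ≤ (2 * N) * s := mul_le_mul_of_nonneg_right (by linarith) hs
        linarith
      · rw [abs_of_neg h0] at hgap
        have : (j - i) * (-h) ≤ (b - a) + (i + j) * s := by linarith
        have h5 : -h ≤ (j - i) * (-h) := by nlinarith
        have h6 : ((i : ℝ) + j) * s ≤ (2 * N) * s := mul_le_mul_of_nonneg_right (by linarith) hs
        linarith
  have h1 : ∀ j ∈ range N, m (Set.Icc a b) ≤ m (Set.Icc (f j) (g j)) + N * Err := by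
    intro j hj
    have h2 := hstep j (mem_range.mp hj)
    have h3 : (j : ℝ) ≤ N := by exact_mod_cast (mem_range.mp hj).le
    have h4 : (j : ℝ) * Err ≤ N * Err := mul_le_mul_of_nonneg_right h3 hErr
    linarith
  have h2 := sum_le_sum h1
  rw [sum_const, card_range, nsmul_eq_mul, sum_add_distrib, sum_const, card_range,
    nsmul_eq_mul] at h2
  nlinarith

end iterate

section fillthm
variable {μ : Ω → ℝ} {ξ ε η₁ η₂ : Type*} {X : Ω → ξ} {E : Ω → ε} {C : Ω → η₁} {B : Ω → η₂}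
    {xh : ξ → ℝ} {eh : ε → ℝ} {ch : η₁ → ℝ} {bh : η₂ → ℝ} {L P : Ω → Prop} {J : Set ℝ} {σ κ : ℝ}

/-- one direction of the fill lemma -/
theorem Box.fill_dir (D : Box μ X E C B xh eh ch bh L P J σ κ) (hκ : 0 ≤ κ) (hσ : 0 ≤ σ) {η : ℝ}
    (hη : 0 < η) (x₁ x₂ : ξ) (e₁ e₂ : ε)
    (hx2 : η * PE μ L ≤ PE μ (fun ω => X ω = x₂ ∧ L ω))
    (he1 : η * PE μ P ≤ PE μ (fun ω => E ω = e₁ ∧ P ω))
    (he2 : η * PE μ P ≤ PE μ (fun ω => E ω = e₂ ∧ P ω))
    {G0 G1 R : ℝ} (G : Set ℝ) (hG : G ⊆ Set.Icc G0 G1)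
    (hR : |eh e₁ * (xh x₂ - xh x₁)| ≤ R) (hJ : Set.Icc (G0 - 2 * σ - R) (G1 + 2 * σ + R) ⊆ J)
    (a b h : ℝ) (hh : h = (eh e₁ - eh e₂) * (xh x₂ - xh x₁)) (N : ℕ)
    (hgap : (b - a) + (2 * N) * (4 * σ) < |h|)
    (hin : ∀ j < N, Set.Icc (a - j * (4 * σ) + j * h) (b + j * (4 * σ) + j * h) ⊆ G) :
    N * PE μ (fun ω => X ω = x₁ ∧ bh (B ω) ∈ Set.Icc a b) ≤
      PE μ (fun ω => X ω = x₁ ∧ bh (B ω) ∈ G) + N ^ 2 * (4 * κ * (PE μ P + PE μ L) / η ^ 2) := by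
  have hμ := D.prob
  have hR0 : 0 ≤ R := (abs_nonneg _).trans hR
  have hRl := abs_le.mp hR
  refine iterate_shift (fun A => PE μ (fun ω => X ω = x₁ ∧ bh (B ω) ∈ A)) G h (4 * σ)
    (4 * κ * (PE μ P + PE μ L) / η ^ 2) N (by positivity) ?_ ?_ ?_ a b hgap hin
  · have := PE_nonneg hμ P
    have := PE_nonneg hμ L
    positivity
  · intro f g hfg hdis
    refine sum_PE_le hμ (range N) (fun j ω => X ω = x₁ ∧ bh (B ω) ∈ Set.Icc (f j) (g j)) _ ?_ ?_
    · intro j hj ω h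
      exact ⟨h.1, hfg j (mem_range.mp hj) h.2⟩
    · intro i hi j hj hij ω h h'
      exact Set.disjoint_left.mp (hdis i (mem_range.mp hi) j (mem_range.mp hj) hij) h.2 h'.2
  · intro a' b' h1 h2
    -- empty intervals
    rcases lt_or_ge b' a' with hlt | hle
    · have e : PE μ (fun ω => X ω = x₁ ∧ bh (B ω) ∈ Set.Icc a' b') = 0 := by
        classical
        rw [PE_def]
        refine sum_eq_zero fun ω _ => if_neg fun h => ?_
        rw [Set.Icc_eq_empty (not_le.mpr hlt)] at h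
        exact h.2
      show PE μ _ ≤ _
      rw [e]
      have p1 := PE_nonneg hμ (fun ω => X ω = x₁ ∧ bh (B ω) ∈
        Set.Icc (a' - 4 * σ + h) (b' + 4 * σ + h))
      have p2 := PE_nonneg hμ P
      have p3 := PE_nonneg hμ L
      have p4 : 0 ≤ 4 * κ * (PE μ P + PE μ L) / η ^ 2 := by positivity
      exact add_nonneg p1 p4
    · have g1 := hG (h1 ⟨le_rfl, hle⟩)
      have g2 := hG (h1 ⟨hle, le_rfl⟩)
      have q := D.qi hκ hη x₁ x₂ e₁ e₂ a' b' hx2 he1 he2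
        (fun t ht => hJ ⟨by linarith [ht.1, g1.1], by linarith [ht.2, g2.2]⟩)
        (fun t ht => hJ ⟨by linarith [ht.1, g1.1, hRl.1], by linarith [ht.2, g2.2, hRl.2]⟩)
        (fun t ht => by
          rw [← hh] at ht
          have := hG (h2 ht)
          exact hJ ⟨by linarith [this.1], by linarith [this.2]⟩)
      rw [← hh] at q
      exact q

/-- **FILL**: the probability of a short interval `[a, b]` of rows at time `x₁`, inside a longer
interval `G = [G0, G1)`. -/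
theorem Box.fill (D : Box μ X E C B xh eh ch bh L P J σ κ) (hκ : 0 ≤ κ) (hσ : 0 ≤ σ) {η : ℝ}
    (hη : 0 < η) (x₁ x₂ : ξ) (e₁ e₂ : ε)
    (hx2 : η * PE μ L ≤ PE μ (fun ω => X ω = x₂ ∧ L ω))
    (he1 : η * PE μ P ≤ PE μ (fun ω => E ω = e₁ ∧ P ω))
    (he2 : η * PE μ P ≤ PE μ (fun ω => E ω = e₂ ∧ P ω))
    {G0 G1 R : ℝ} (hR1 : |eh e₁ * (xh x₂ - xh x₁)| ≤ R) (hR2 : |eh e₂ * (xh x₂ - xh x₁)| ≤ R)
    (hJ : Set.Icc (G0 - 2 * σ - R) (G1 + 2 * σ + R) ⊆ J)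
    (a b h : ℝ) (hh : h = |(eh e₁ - eh e₂) * (xh x₂ - xh x₁)|) (N : ℕ)
    (hgap : (b - a) + 8 * N * σ < h) (hab : a ≤ b) (ha : G0 ≤ a) (hb : b < G1)
    (hroom : 2 * N * (h + 4 * σ) ≤ (G1 - G0) - (b - a)) :
    N * PE μ (fun ω => X ω = x₁ ∧ bh (B ω) ∈ Set.Icc a b) ≤
      PE μ (fun ω => X ω = x₁ ∧ bh (B ω) ∈ Set.Ico G0 G1) +
        N ^ 2 * (4 * κ * (PE μ P + PE μ L) / η ^ 2) := by
  have hh0 : 0 ≤ h := hh ▸ abs_nonneg _
  have hN0 : (0 : ℝ) ≤ N := Nat.cast_nonneg N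
  have hσN : 0 ≤ 8 * (N : ℝ) * σ := by positivity
  -- `4 σ ≤ h` if `N ≥ 1`
  rcases Nat.eq_zero_or_pos N with rfl | hN
  · have p1 := PE_nonneg D.prob (fun ω => X ω = x₁ ∧ bh (B ω) ∈ Set.Ico G0 G1)
    simpa using p1
  have hN1 : (1 : ℝ) ≤ N := by exact_mod_cast hN
  have h4σ : 4 * σ ≤ h := by nlinarith
  -- a signed shift with room
  have main : ∀ (e e' : ε) (h' : ℝ), h' = (eh e - eh e') * (xh x₂ - xh x₁) → |h'| = h →
      (η * PE μ P ≤ PE μ (fun ω => E ω = e ∧ P ω)) →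
      (η * PE μ P ≤ PE μ (fun ω => E ω = e' ∧ P ω)) → |eh e * (xh x₂ - xh x₁)| ≤ R →
      ((0 ≤ h' ∧ b + N * (h + 4 * σ) ≤ G1) ∨ (h' ≤ 0 ∧ G0 ≤ a - N * (h + 4 * σ))) →
      N * PE μ (fun ω => X ω = x₁ ∧ bh (B ω) ∈ Set.Icc a b) ≤
        PE μ (fun ω => X ω = x₁ ∧ bh (B ω) ∈ Set.Ico G0 G1) +
        N ^ 2 * (4 * κ * (PE μ P + PE μ L) / η ^ 2) := by
    intro e e' h' hh' habs he he' hRe hor
    refine D.fill_dir hκ hσ hη x₁ x₂ e e' hx2 he he' (G0 := G0) (G1 := G1) (Set.Ico G0 G1)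
      (fun t ht => ⟨ht.1, ht.2.le⟩) hRe hJ a b h' hh' N (by rw [habs]; linarith) ?_
    intro j hj t ht
    have hjN : (j : ℝ) + 1 ≤ N := by exact_mod_cast hj
    have hj0 : (0 : ℝ) ≤ j := Nat.cast_nonneg j
    have t1 := ht.1
    have t2 := ht.2
    have hjσ : (j : ℝ) * (4 * σ) ≤ j * h := mul_le_mul_of_nonneg_left h4σ hj0
    have hjh : (j : ℝ) * (h + 4 * σ) + (h + 4 * σ) ≤ N * (h + 4 * σ) := by
      have : ((j : ℝ) + 1) * (h + 4 * σ) ≤ N * (h + 4 * σ) :=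
        mul_le_mul_of_nonneg_right hjN (by positivity)
      linarith
    rcases hor with ⟨h0, hor⟩ | ⟨h0, hor⟩
    · rw [abs_of_nonneg h0] at habs
      rw [habs] at t1 t2
      refine ⟨by linarith, ?_⟩
      have : 0 < h := by
        have : 0 ≤ b - a := by linarith
        nlinarith
      nlinarith
    · rw [abs_of_nonpos h0] at habs
      have habs' : h' = -h := by linarith
      rw [habs'] at t1 t2
      exact ⟨by nlinarith, by nlinarith⟩
  -- the two directions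
  have hd : b + N * (h + 4 * σ) ≤ G1 ∨ G0 ≤ a - N * (h + 4 * σ) := by
    by_contra hcon
    push Not at hcon
    nlinarith [hcon.1, hcon.2]
  have e12 : (eh e₂ - eh e₁) * (xh x₂ - xh x₁) = - ((eh e₁ - eh e₂) * (xh x₂ - xh x₁)) := by ring
  rcases le_total 0 ((eh e₁ - eh e₂) * (xh x₂ - xh x₁)) with hs | hs
  · rcases hd with hd | hd
    · exact main e₁ e₂ _ rfl hh.symm he1 he2 hR1 (Or.inl ⟨hs, hd⟩)
    · refine main e₂ e₁ _ rfl (by rw [e12, abs_neg]; exact hh.symm) he2 he1 hR2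
        (Or.inr ⟨by rw [e12]; linarith, hd⟩)
  · rcases hd with hd | hd
    · refine main e₂ e₁ _ rfl (by rw [e12, abs_neg]; exact hh.symm) he2 he1 hR2
        (Or.inl ⟨by rw [e12]; linarith, hd⟩)
    · exact main e₁ e₂ _ rfl hh.symm he1 he2 hR1 (Or.inr ⟨hs, hd⟩)

end fillthm

end Vale.Agent.P065.Ent
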