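import Vale.Agent.P065.H587.Ent

/-!
# P065, package ENT, part 2: conditional laws, events, total variation
-/

set_option autoImplicit false

open Finset Real

noncomputable section

namespace Vale.Agent.P065.Ent

variable {Ω : Type*} [Fintype Ω] {α β γ δ : Type*}

open Classical in
/-- the law `μ` conditioned on `Y = y` -/
def cnd (μ : Ω → ℝ) (Y : Ω → β) (y : β) (ω : Ω) : ℝ := if Y ω = y then μ ω / Pr μ Y y else 0

section cnd
variable {μ : Ω → ℝ} {X : Ω → α} {Y : Ω → β} {Z : Ω → γ} {W : Ω → δ}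

lemma cnd_isProb (hμ : IsProb μ) {y : β} (hy : 0 < Pr μ Y y) : IsProb (cnd μ Y y) := by
  classical
  refine ⟨fun ω => ?_, ?_⟩
  · unfold cnd
    split_ifs
    · exact div_nonneg (hμ.nonneg ω) hy.le
    · exact le_rfl
  · unfold cnd
    rw [sum_ite, sum_const_zero, add_zero, ← sum_div, div_eq_one_iff_eq hy.ne', sum_filter]
    rfl

lemma cnd_pos {y : β} {ω : Ω} (h : 0 < cnd μ Y y ω) : Y ω = y := by
  classical
  by_contra hne
  rw [cnd, if_neg hne] at h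
  exact lt_irrefl _ h

lemma Pr_cnd (μ : Ω → ℝ) (X : Ω → α) (Y : Ω → β) (x : α) (y : β) :
    Pr (cnd μ Y y) X x = Pr μ (fun ω => (X ω, Y ω)) (x, y) / Pr μ Y y := by
  classical
  unfold Pr
  rw [sum_div]
  refine sum_congr rfl fun ω _ => ?_
  unfold cnd Pr
  by_cases h1 : X ω = x
  · by_cases h2 : Y ω = y
    · simp [h1, h2]
    · simp [h1, h2]
  · simp [h1]

lemma sum_cnd (μ : Ω → ℝ) (Y : Ω → β) (y : β) (g : Ω → ℝ) (hy : Pr μ Y y ≠ 0) [DecidableEq β] :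
    Pr μ Y y * ∑ ω, cnd μ Y y ω * g ω = ∑ ω, if Y ω = y then μ ω * g ω else 0 := by
  classical
  rw [mul_sum]
  refine sum_congr rfl fun ω _ => ?_
  unfold cnd
  by_cases h : Y ω = y
  · simp only [h, if_true]; field_simp
  · simp [h]

/-- total expectation -/
lemma sum_cnd_fiber [DecidableEq β] (hμ : IsProb μ) (Y : Ω → β) (g : β → Ω → ℝ) :
    ∑ ω, μ ω * g (Y ω) ω = ∑ y ∈ univ.image Y, Pr μ Y y * ∑ ω, cnd μ Y y ω * g y ω := by
  classical
  have h1 : ∀ y ∈ univ.image Y, Pr μ Y y * ∑ ω, cnd μ Y y ω * g y ω =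
      ∑ ω, if Y ω = y then μ ω * g y ω else 0 := by
    intro y _
    rcases eq_or_ne (Pr μ Y y) 0 with h0 | h0
    · rw [h0, zero_mul]
      symm
      refine sum_eq_zero fun ω _ => ?_
      split_ifs with h
      · have h2 := le_Pr hμ Y ω
        rw [h, h0] at h2
        rw [le_antisymm h2 (hμ.nonneg ω), zero_mul]
      · rfl
    · exact sum_cnd μ Y y _ h0
  rw [sum_congr rfl h1, sum_comm]
  refine sum_congr rfl fun ω _ => ?_
  rw [sum_ite_eq, if_pos (mem_image_of_mem Y (mem_univ ω))]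

/-- **Fibre formula** for conditional entropy. -/
theorem Hc_fiber [DecidableEq β] (hμ : IsProb μ) (X : Ω → α) (Y : Ω → β) :
    Hc μ X Y = ∑ y ∈ univ.image Y, Pr μ Y y * H (cnd μ Y y) X := by
  classical
  rw [Hc_eq_sum hμ]
  have h := sum_cnd_fiber hμ Y
    (fun y ω => - log (Pr μ (fun ω => (X ω, Y ω)) (X ω, y) / Pr μ Y y))
  refine h.trans (sum_congr rfl fun y _ => ?_)
  congr 1
  unfold H
  refine sum_congr rfl fun ω _ => ?_
  rw [Pr_cnd]

/-- **Fibre formula**, conditional form: `H (X | Y, Z) = ∑ z, P (Z = z) H (X | Y) (law given z)` -/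
theorem Hc_fiber' [DecidableEq γ] (hμ : IsProb μ) (X : Ω → α) (Y : Ω → β) (Z : Ω → γ) :
    Hc μ X (fun ω => (Y ω, Z ω)) = ∑ z ∈ univ.image Z, Pr μ Z z * Hc (cnd μ Z z) X Y := by
  classical
  have h1 : Hc μ X (fun ω => (Y ω, Z ω)) =
      Hc μ (fun ω => (X ω, Y ω)) Z - Hc μ Y Z := by
    rw [Hc_pair]; ring
  rw [h1, Hc_fiber hμ, Hc_fiber hμ, ← sum_sub_distrib]
  refine sum_congr rfl fun z _ => ?_
  rw [← mul_sub]; rfl

/-- fibre formula for the mutual information -/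
theorem I_fiber' [DecidableEq δ] (hμ : IsProb μ) (X : Ω → α) (Y : Ω → β) (Z : Ω → γ) (W : Ω → δ) :
    I μ X Y (fun ω => (Z ω, W ω)) = ∑ w ∈ univ.image W, Pr μ W w * I (cnd μ W w) X Y Z := by
  classical
  unfold I
  have h1 : Hc μ X (fun ω => (Y ω, (Z ω, W ω))) = Hc μ X (fun ω => ((Y ω, Z ω), W ω)) := by
    refine Hc_congr (Det.refl X) (Det.refl X) ?_ ?_
    · exact ((det_fst _ _).pair ((det_snd _ _).trans (det_fst Z W))).pair
        ((det_snd _ _).trans (det_snd Z W))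
    · exact ((det_fst _ _).trans (det_fst Y Z)).pair
        (((det_fst _ _).trans (det_snd Y Z)).pair (det_snd _ _))
  rw [h1, Hc_fiber' hμ X Z W, Hc_fiber' hμ X (fun ω => (Y ω, Z ω)) W, ← sum_sub_distrib]
  exact sum_congr rfl fun w _ => by rw [← mul_sub]

/-! ## Conditioning on an event -/

/-- the law conditioned on the event `Q` -/
abbrev cE (μ : Ω → ℝ) (Q : Ω → Prop) : Ω → ℝ := cnd μ Q True

/-- the probability of the event `Q` -/
abbrev PE (μ : Ω → ℝ) (Q : Ω → Prop) : ℝ := Pr μ Q True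

lemma PE_eq (μ : Ω → ℝ) (Q : Ω → Prop) [DecidablePred Q] :
    PE μ Q = ∑ ω, if Q ω then μ ω else 0 := by
  classical
  unfold PE Pr
  refine sum_congr rfl fun ω _ => ?_
  by_cases h : Q ω
  · simp [h]
  · simp [h]

lemma PE_mul_Hc_le (hμ : IsProb μ) (X : Ω → α) (Y : Ω → β) (Q : Ω → Prop) :
    PE μ Q * Hc (cE μ Q) X Y ≤ Hc μ X (fun ω => (Y ω, Q ω)) := by
  classical
  rw [Hc_fiber' hμ X Y Q]
  by_cases hT : True ∈ univ.image Q
  · refine single_le_sum (f := fun z => Pr μ Q z * Hc (cnd μ Q z) X Y) (fun z hz => ?_) hT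
    rcases (Pr_nonneg hμ Q z).eq_or_lt with h0 | h0
    · show 0 ≤ Pr μ Q z * _
      rw [← h0, zero_mul]
    · exact mul_nonneg h0.le (Hc_nonneg (cnd_isProb hμ h0) X Y)
  · have h0 : PE μ Q = 0 := Pr_eq_zero Q fun ω h => hT (h ▸ mem_image_of_mem Q (mem_univ ω))
    rw [h0, zero_mul]
    refine sum_nonneg fun z _ => ?_
    rcases (Pr_nonneg hμ Q z).eq_or_lt with h0 | h0
    · rw [← h0, zero_mul]
    · exact mul_nonneg h0.le (Hc_nonneg (cnd_isProb hμ h0) X Y)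

/-- `P (Q) H_Q (X | Y) ≤ H (X | Y)` -/
lemma PE_mul_Hc_le' (hμ : IsProb μ) (X : Ω → α) (Y : Ω → β) (Q : Ω → Prop) :
    PE μ Q * Hc (cE μ Q) X Y ≤ Hc μ X Y :=
  (PE_mul_Hc_le hμ X Y Q).trans (Hc_anti hμ X (det_fst Y Q))

/-- `P (Q) I_Q (X; Y | Z) ≤ I (X; Y | Z, Q)` -/
lemma PE_mul_I_le (hμ : IsProb μ) (X : Ω → α) (Y : Ω → β) (Z : Ω → γ) (Q : Ω → Prop) :
    PE μ Q * I (cE μ Q) X Y Z ≤ I μ X Y (fun ω => (Z ω, Q ω)) := by
  classical
  rw [I_fiber' hμ X Y Z Q]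
  by_cases hT : True ∈ univ.image Q
  · refine single_le_sum (f := fun z => Pr μ Q z * I (cnd μ Q z) X Y Z) (fun z hz => ?_) hT
    rcases (Pr_nonneg hμ Q z).eq_or_lt with h0 | h0
    · show 0 ≤ Pr μ Q z * _
      rw [← h0, zero_mul]
    · exact mul_nonneg h0.le (I_nonneg (cnd_isProb hμ h0) X Y Z)
  · have h0 : PE μ Q = 0 := Pr_eq_zero Q fun ω h => hT (h ▸ mem_image_of_mem Q (mem_univ ω))
    rw [h0, zero_mul]
    refine sum_nonneg fun z _ => ?_
    rcases (Pr_nonneg hμ Q z).eq_or_lt with h0 | h0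
    · rw [← h0, zero_mul]
    · exact mul_nonneg h0.le (I_nonneg (cnd_isProb hμ h0) X Y Z)

/-- `I (X; Y | Z, W) ≤ I (X; Y | Z) + I (X; W | Y, Z)` -/
lemma I_cond_le (hμ : IsProb μ) (X : Ω → α) (Y : Ω → β) (Z : Ω → γ) (W : Ω → δ) :
    I μ X Y (fun ω => (Z ω, W ω)) ≤ I μ X Y Z + I μ X W (fun ω => (Y ω, Z ω)) := by
  have h1 := I_chain μ X Y W Z
  have h2 := I_chain μ X W Y Z
  have h3 : I μ X (fun ω => (Y ω, W ω)) Z = I μ X (fun ω => (W ω, Y ω)) Z :=
    I_congr (Det.refl _) (Det.refl _) (det_swap _ _) (det_swap _ _) (Det.refl _) (Det.refl _)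
  have h4 : I μ X Y (fun ω => (W ω, Z ω)) = I μ X Y (fun ω => (Z ω, W ω)) :=
    I_congr (Det.refl _) (Det.refl _) (Det.refl _) (Det.refl _) (det_swap _ _) (det_swap _ _)
  have h5 := I_nonneg hμ X W Z
  linarith

/-- event in, one bit out: `P (Q) I_Q (X; Y | Z) ≤ I (X; Y | Z) + I (X; Q | Y, Z)` -/
lemma PE_mul_I_le' (hμ : IsProb μ) (X : Ω → α) (Y : Ω → β) (Z : Ω → γ) (Q : Ω → Prop) :
    PE μ Q * I (cE μ Q) X Y Z ≤ I μ X Y Z + I μ X Q (fun ω => (Y ω, Z ω)) :=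
  (PE_mul_I_le hμ X Y Z Q).trans (I_cond_le hμ X Y Z Q)

lemma H_prop_le (hμ : IsProb μ) (Q : Ω → Prop) : H μ Q ≤ log 2 := by
  classical
  have h := H_le_log hμ Q {True, False} (fun ω => by
    by_cases hq : Q ω
    · simp [hq]
    · simp [hq]) (by simp)
  refine h.trans (log_le_log (by simp) ?_)
  have := card_le_two (a := True) (b := False)
  exact_mod_cast this

lemma Hc_prop_le (hμ : IsProb μ) (Q : Ω → Prop) (Y : Ω → β) : Hc μ Q Y ≤ log 2 :=
  (Hc_le_H hμ Q Y).trans (H_prop_le hμ Q)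

/-- `H (X | Y) ≤ log 2 + P (Q) H_Q (X | Y) + P (Qᶜ) H_{Qᶜ} (X | Y)` -/
lemma Hc_le_event (hμ : IsProb μ) (X : Ω → α) (Y : Ω → β) (Q : Ω → Prop) :
    Hc μ X Y ≤ log 2 + PE μ Q * Hc (cE μ Q) X Y +
      PE μ (fun ω => ¬ Q ω) * Hc (cE μ (fun ω => ¬ Q ω)) X Y := by
  classical
  have h1 : Hc μ X Y ≤ Hc μ X (fun ω => (Y ω, Q ω)) + log 2 := by
    have h2 := Hc_le_add hμ X Q Y
    have h3 : Hc μ X (fun ω => (Q ω, Y ω)) = Hc μ X (fun ω => (Y ω, Q ω)) :=
      Hc_congr (Det.refl X) (Det.refl X) (det_swap _ _) (det_swap _ _)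
    have h4 := Hc_prop_le hμ Q Y
    linarith
  rw [Hc_fiber' hμ X Y Q] at h1
  have h5 : ∑ z ∈ univ.image Q, Pr μ Q z * Hc (cnd μ Q z) X Y ≤
      ∑ z ∈ ({True, False} : Finset Prop), Pr μ Q z * Hc (cnd μ Q z) X Y := by
    refine sum_le_sum_of_subset_of_nonneg (fun z _ => ?_) fun z _ _ => ?_
    · by_cases hz : z
      · simp [hz]
      · simp [hz]
    · rcases (Pr_nonneg hμ Q z).eq_or_lt with h0 | h0
      · rw [← h0, zero_mul]
      · exact mul_nonneg h0.le (Hc_nonneg (cnd_isProb hμ h0) X Y)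
  rw [sum_pair (by simp)] at h5
  have h6 : Pr μ Q False = PE μ (fun ω => ¬ Q ω) := by
    unfold PE Pr
    refine sum_congr rfl fun ω _ => ?_
    by_cases hq : Q ω <;> simp [hq]
  have h7 : cnd μ Q False = cE μ (fun ω => ¬ Q ω) := by
    funext ω
    unfold cE cnd
    rw [show Pr μ (fun ω => ¬ Q ω) True = Pr μ Q False from h6.symm]
    by_cases hq : Q ω <;> simp [hq]
  rw [h6, h7] at h5
  linarith

end cnd

/-! ## Total variation: `∑ |p - q| ≤ 2 √ D (p || q)` -/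

section tv

/-- Hellinger form of the Pinsker inequality on a finite set: if `p, q ≥ 0`, `∑ p = 1`, `∑ q ≤ 1`
and `q > 0` where `p > 0`, then `∑ |p - q| ≤ 2 √ (∑ p log (p / q))`. -/
theorem tv_le {ι : Type*} (s : Finset ι) (p q : ι → ℝ) (hp : ∀ i ∈ s, 0 ≤ p i)
    (hq : ∀ i ∈ s, 0 ≤ q i) (hpq : ∀ i ∈ s, 0 < p i → 0 < q i) (hp1 : ∑ i ∈ s, p i = 1)
    (hq1 : ∑ i ∈ s, q i ≤ 1) :
    ∑ i ∈ s, |p i - q i| ≤ 2 * √ (∑ i ∈ s, p i * log (p i / q i)) := by
  -- Hellinger distance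
  have h1 : ∑ i ∈ s, (√ (p i) - √ (q i)) ^ 2 ≤ ∑ i ∈ s, p i * log (p i / q i) := by
    have h2 : ∀ i ∈ s, 2 * p i - 2 * (√ (p i) * √ (q i)) ≤ p i * log (p i / q i) := by
      intro i hi
      rcases (hp i hi).eq_or_lt with h0 | h0
      · rw [← h0]; simp
      · have h3 := hpq i hi h0
        have h4 : log (√ (q i) / √ (p i)) ≤ √ (q i) / √ (p i) - 1 :=
          log_le_sub_one_of_pos (div_pos (sqrt_pos.mpr h3) (sqrt_pos.mpr h0))
        have h5 : log (√ (q i) / √ (p i)) = - (1 / 2) * log (p i / q i) := by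
          rw [log_div (sqrt_pos.mpr h3).ne' (sqrt_pos.mpr h0).ne', log_sqrt h3.le,
            log_sqrt h0.le, log_div h0.ne' h3.ne']
          ring
        rw [h5] at h4
        have h6 : p i * (√ (q i) / √ (p i)) = √ (p i) * √ (q i) := by
          have h7 : √ (p i) ≠ 0 := (sqrt_pos.mpr h0).ne'
          field_simp
          rw [sq_sqrt h0.le]
        have h8 : p i * (- (1 / 2) * log (p i / q i)) ≤ p i * (√ (q i) / √ (p i) - 1) :=
          mul_le_mul_of_nonneg_left h4 h0.le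
        have h9 : p i * (√ (q i) / √ (p i) - 1) = √ (p i) * √ (q i) - p i := by
          rw [mul_sub, h6, mul_one]
        rw [h9] at h8
        nlinarith
    have h3 : ∑ i ∈ s, (√ (p i) - √ (q i)) ^ 2 =
        ∑ i ∈ s, p i + ∑ i ∈ s, q i - ∑ i ∈ s, 2 * (√ (p i) * √ (q i)) := by
      rw [← sum_add_distrib, ← sum_sub_distrib]
      refine sum_congr rfl fun i hi => ?_
      have e1 := sq_sqrt (hp i hi)
      have e2 := sq_sqrt (hq i hi)
      nlinarith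
    have h4 := sum_le_sum h2
    rw [sum_sub_distrib, ← mul_sum] at h4
    rw [h3]
    linarith
  have h2 : ∑ i ∈ s, |p i - q i| ≤
      √ (∑ i ∈ s, (√ (p i) - √ (q i)) ^ 2) * √ (∑ i ∈ s, (√ (p i) + √ (q i)) ^ 2) := by
    have h3 : ∀ i ∈ s, |p i - q i| = |√ (p i) - √ (q i)| * |√ (p i) + √ (q i)| := by
      intro i hi
      rw [← abs_mul]
      congr 1
      have e1 := sq_sqrt (hp i hi)
      have e2 := sq_sqrt (hq i hi)
      nlinarith
    rw [sum_congr rfl h3]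
    have h4 := sum_mul_le_sqrt_mul_sqrt s (fun i => |√ (p i) - √ (q i)|)
      (fun i => |√ (p i) + √ (q i)|)
    simpa only [sq_abs] using h4
  have h3 : ∑ i ∈ s, (√ (p i) + √ (q i)) ^ 2 ≤ 4 := by
    have h4 : ∀ i ∈ s, (√ (p i) + √ (q i)) ^ 2 ≤ 2 * p i + 2 * q i := by
      intro i hi
      have e1 := sq_sqrt (hp i hi)
      have e2 := sq_sqrt (hq i hi)
      nlinarith [sq_nonneg (√ (p i) - √ (q i))]
    refine (sum_le_sum h4).trans ?_
    rw [sum_add_distrib, ← mul_sum, ← mul_sum]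
    linarith
  have h4 : √ (∑ i ∈ s, (√ (p i) + √ (q i)) ^ 2) ≤ 2 := by
    rw [show (2 : ℝ) = √ 4 by rw [show (4 : ℝ) = 2 ^ 2 by norm_num]; simp]
    exact sqrt_le_sqrt h3
  have h5 : √ (∑ i ∈ s, (√ (p i) - √ (q i)) ^ 2) ≤ √ (∑ i ∈ s, p i * log (p i / q i)) :=
    sqrt_le_sqrt h1
  calc ∑ i ∈ s, |p i - q i| ≤ _ := h2
    _ ≤ √ (∑ i ∈ s, p i * log (p i / q i)) * 2 :=
      mul_le_mul h5 h4 (sqrt_nonneg _) (sqrt_nonneg _)
    _ = _ := by ring

variable {μ : Ω → ℝ}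

/-- **Conditional independence in total variation**: the joint law of `(X, Y, Z)` is within
`2 √ I (X; Y | Z)` of the law with `X, Y` conditionally independent given `Z`. -/
theorem tv_I [DecidableEq α] [DecidableEq β] [DecidableEq γ] (hμ : IsProb μ)
    (X : Ω → α) (Y : Ω → β) (Z : Ω → γ) :
    ∑ t ∈ univ.image X ×ˢ univ.image Y ×ˢ univ.image Z,
      |Pr μ (fun ω => (X ω, Y ω, Z ω)) t - Pr μ (fun ω => (X ω, Z ω)) (t.1, t.2.2) *
        Pr μ (fun ω => (Y ω, Z ω)) t.2 / Pr μ Z t.2.2| ≤ 2 * √ (I μ X Y Z) := by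
  classical
  set V : Ω → α × β × γ := fun ω => (X ω, Y ω, Z ω) with hV
  set q : α × β × γ → ℝ := fun t => Pr μ (fun ω => (X ω, Z ω)) (t.1, t.2.2) *
        Pr μ (fun ω => (Y ω, Z ω)) t.2 / Pr μ Z t.2.2 with hq
  set s := univ.image X ×ˢ univ.image Y ×ˢ univ.image Z with hs
  have hVs : univ.image V ⊆ s := by
    intro t ht
    obtain ⟨ω, -, rfl⟩ := mem_image.mp ht
    exact mem_product.mpr ⟨mem_image_of_mem X (mem_univ ω), mem_product.mpr
      ⟨mem_image_of_mem Y (mem_univ ω), mem_image_of_mem Z (mem_univ ω)⟩⟩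
  have hout : ∀ t ∈ s, t ∉ univ.image V → Pr μ V t = 0 := fun t _ ht =>
    Pr_eq_zero V fun ω h => ht (h ▸ mem_image_of_mem V (mem_univ ω))
  have hp1 : ∑ t ∈ s, Pr μ V t = 1 := by
    rw [← sum_subset hVs hout]
    exact sum_Pr hμ V
  have hq1 : ∑ t ∈ s, q t ≤ 1 := by
    rw [hs, sum_product_right]
    have h1 : ∀ yz ∈ univ.image Y ×ˢ univ.image Z, ∑ x ∈ univ.image X, q (x, yz) ≤
        Pr μ (fun ω => (Y ω, Z ω)) yz := by
      intro yz _
      have e : ∀ x ∈ univ.image X, q (x, yz) = Pr μ (fun ω => (X ω, Z ω)) (x, yz.2) *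
        (Pr μ (fun ω => (Y ω, Z ω)) yz / Pr μ Z yz.2) := fun x _ => by rw [hq]; ring
      rw [sum_congr rfl e, ← sum_mul, sum_Pr_pair]
      rcases (Pr_nonneg hμ Z yz.2).eq_or_lt with h0 | h0
      · rw [← h0, zero_mul]; exact Pr_nonneg hμ _ _
      · rw [mul_div_cancel₀ _ h0.ne']
    refine (sum_le_sum h1).trans (le_of_eq ?_)
    rw [sum_product_right]
    rw [sum_congr rfl fun z _ => sum_Pr_pair μ Y Z z]
    exact sum_Pr hμ Z
  have hpos : ∀ t ∈ s, 0 < Pr μ V t → 0 < q t := by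
    intro t _ ht
    obtain ⟨ω, hω, h0⟩ : ∃ ω, V ω = t ∧ 0 < μ ω := by
      by_contra hcon
      push Not at hcon
      have : Pr μ V t = 0 := by
        unfold Pr
        refine sum_eq_zero fun ω _ => ?_
        split_ifs with h
        · exact le_antisymm (hcon ω h) (hμ.nonneg ω)
        · rfl
      rw [this] at ht
      exact lt_irrefl _ ht
    rw [← hω]
    have p1 := Pr_pos hμ (fun ω => (X ω, Z ω)) h0
    have p2 := Pr_pos hμ (fun ω => (Y ω, Z ω)) h0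
    have p3 := Pr_pos hμ Z h0
    exact div_pos (mul_pos p1 p2) p3
  have hD : ∑ t ∈ s, Pr μ V t * log (Pr μ V t / q t) = I μ X Y Z := by
    rw [← sum_subset hVs fun t ht ht' => by rw [hout t ht ht', zero_mul]]
    rw [← sum_fiber μ V (fun t => log (Pr μ V t / q t))]
    unfold I
    rw [Hc_eq_sum hμ, Hc_eq_sum hμ, ← sum_sub_distrib]
    refine sum_congr rfl fun ω _ => ?_
    rcases (hμ.nonneg ω).eq_or_lt with h0 | h0
    · rw [← h0]; simp
    · have p1 := Pr_pos hμ (fun ω => (X ω, Z ω)) h0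
      have p2 := Pr_pos hμ (fun ω => (Y ω, Z ω)) h0
      have p3 := Pr_pos hμ Z h0
      have p4 := Pr_pos hμ V h0
      have e1 : Pr μ (fun ω => (X ω, (Y ω, Z ω))) (X ω, (Y ω, Z ω)) = Pr μ V (V ω) := rfl
      simp only [e1, hq, hV] at *
      rw [log_div p4.ne' (by positivity), log_div (by positivity) p3.ne', log_mul p1.ne' p2.ne',
        log_div p1.ne' p3.ne', log_div p4.ne' p2.ne']
      ring
  rw [← hD]
  exact tv_le s (Pr μ V) q (fun t _ => Pr_nonneg hμ V t) (fun t _ =>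
    div_nonneg (mul_nonneg (Pr_nonneg hμ _ _) (Pr_nonneg hμ _ _)) (Pr_nonneg hμ _ _)) hpos hp1 hq1

end tv

end Vale.Agent.P065.Ent
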